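import Mathlib

open MeasureTheory Function Set
open scoped BigOperators

namespace P347SA

variable {X : Type*} [NormedAddCommGroup X] [NormedSpace ℝ X]

/-- mean value inequality with linear bound -/
theorem mv_lin {f f' : ℝ → X} {T M : ℝ} (hT : 0 ≤ T)
    (hf : ∀ s ∈ Icc (0 : ℝ) T, HasDerivWithinAt f (f' s) (Icc (0 : ℝ) T) s)
    (hb : ∀ s ∈ Icc (0 : ℝ) T, ‖f' s‖ ≤ M * (2 * s)) (h0 : f 0 = 0) :
    ∀ s ∈ Icc (0 : ℝ) T, ‖f s‖ ≤ M * s ^ 2 := by
  intro s hs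
  have hc : ContinuousOn f (Icc 0 T) := fun x hx => (hf x hx).continuousWithinAt
  refine image_norm_le_of_norm_deriv_right_le_deriv_boundary (a := 0) (b := T) (f := f) (f' := f')
    (B := fun s => M * s ^ 2) (B' := fun s => M * (2 * s)) hc ?_ ?_ ?_ ?_ hs
  · intro x hx
    have := hf x ⟨hx.1, hx.2.le⟩
    exact this.mono_of_mem_nhdsWithin (Icc_mem_nhdsGE_of_mem hx)
  · simp [h0]
  · intro x
    have h1 : HasDerivAt (fun s : ℝ => s ^ 2) (2 * x) x := by simpa using hasDerivAt_pow 2 x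
    exact h1.const_mul M
  · intro x hx
    exact hb x ⟨hx.1, hx.2.le⟩

/-- mean value inequality with constant bound -/
theorem mv_const {f f' : ℝ → X} {T M : ℝ} (hT : 0 ≤ T)
    (hf : ∀ s ∈ Icc (0 : ℝ) T, HasDerivWithinAt f (f' s) (Icc (0 : ℝ) T) s)
    (hb : ∀ s ∈ Icc (0 : ℝ) T, ‖f' s‖ ≤ M) :
    ∀ s ∈ Icc (0 : ℝ) T, ‖f s - f 0‖ ≤ M * s := by
  intro s hs
  have h := (convex_Icc (0 : ℝ) T).norm_image_sub_le_of_norm_hasDerivWithin_le (f := f)
    (f' := f') (C := M) hf hb (left_mem_Icc.2 hT) hs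
  simpa [Real.norm_of_nonneg hs.1] using h

/-- a solution of the Hamiltonian equations on `[0,T]` -/
def Sol (G : X → X) (T : ℝ) (c : ℝ → X × X) : Prop :=
  ∀ s ∈ Icc (0 : ℝ) T, HasDerivWithinAt c ((c s).2, -G (c s).1) (Icc (0 : ℝ) T) s

theorem Sol.fst {G : X → X} {T : ℝ} {c : ℝ → X × X} (h : Sol G T c) :
    ∀ s ∈ Icc (0 : ℝ) T, HasDerivWithinAt (fun r => (c r).1) (c s).2 (Icc (0 : ℝ) T) s := by
  intro s hs
  exact (h s hs).fst

theorem Sol.snd {G : X → X} {T : ℝ} {c : ℝ → X × X} (h : Sol G T c) :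
    ∀ s ∈ Icc (0 : ℝ) T, HasDerivWithinAt (fun r => (c r).2) (-G (c s).1) (Icc (0 : ℝ) T) s := by
  intro s hs
  exact (h s hs).snd

theorem sol_sup {G : X → X} {T : ℝ} {c : ℝ → X × X} (h : Sol G T c) (hT : 0 ≤ T) (x : X) :
    ∃ s ∈ Icc (0 : ℝ) T, ∀ r ∈ Icc (0 : ℝ) T, ‖(c r).1 - x‖ ≤ ‖(c s).1 - x‖ := by
  have hc : ContinuousOn (fun r => ‖(c r).1 - x‖) (Icc 0 T) := by
    have : ContinuousOn (fun r => (c r).1) (Icc 0 T) :=
      fun r hr => (h.fst r hr).continuousWithinAt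
    exact (this.sub continuousOn_const).norm
  obtain ⟨s, hs, hm⟩ := isCompact_Icc.exists_isMaxOn (nonempty_Icc.2 hT) hc
  exact ⟨s, hs, fun r hr => hm hr⟩

theorem sol_diff {G : X → X} (hG : ∀ x y, ‖G x - G y‖ ≤ 2 * ‖x - y‖) {T : ℝ}
    {c c' : ℝ → X × X} (h : Sol G T c) (h' : Sol G T c') (hT : 0 ≤ T) (hT1 : T ≤ 1 / 4) :
    ‖(c T).1 - (c' T).1 - (((c 0).1 - (c' 0).1) + T • ((c 0).2 - (c' 0).2))‖ ≤
        4 * T ^ 2 * (‖(c 0).1 - (c' 0).1‖ + T * ‖(c 0).2 - (c' 0).2‖) ∧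
    ‖(c T).2 - (c' T).2 - ((c 0).2 - (c' 0).2)‖ ≤
      4 * T * (‖(c 0).1 - (c' 0).1‖ + T * ‖(c 0).2 - (c' 0).2‖) := by
  set a := (c 0).1 - (c' 0).1 with ha
  set b := (c 0).2 - (c' 0).2 with hb
  have hTT : T ∈ Icc (0 : ℝ) T := right_mem_Icc.2 hT
  have h0T : (0 : ℝ) ∈ Icc (0 : ℝ) T := left_mem_Icc.2 hT
  -- the supremum
  have hc : ContinuousOn (fun r => ‖(c r).1 - (c' r).1‖) (Icc 0 T) := by
    have h1 : ContinuousOn (fun r => (c r).1) (Icc 0 T) :=
      fun r hr => (h.fst r hr).continuousWithinAt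
    have h2 : ContinuousOn (fun r => (c' r).1) (Icc 0 T) :=
      fun r hr => (h'.fst r hr).continuousWithinAt
    exact (h1.sub h2).norm
  obtain ⟨s, hs, hm⟩ := isCompact_Icc.exists_isMaxOn (nonempty_Icc.2 hT) hc
  set M := ‖(c s).1 - (c' s).1‖ with hM
  have hm' : ∀ r ∈ Icc (0 : ℝ) T, ‖(c r).1 - (c' r).1‖ ≤ M := fun r hr => hm hr
  have hM0 : 0 ≤ M := norm_nonneg _
  have hv : ∀ r ∈ Icc (0 : ℝ) T, ‖(c r).2 - (c' r).2 - b‖ ≤ 2 * M * r := by
    intro r hr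
    have := mv_const (f := fun r => (c r).2 - (c' r).2)
      (f' := fun r => -G (c r).1 - -G (c' r).1) (T := T) (M := 2 * M) hT
      (fun r hr => (h.snd r hr).sub (h'.snd r hr)) ?_ r hr
    · simpa [hb] using this
    · intro r hr
      have e : -G (c r).1 - -G (c' r).1 = -(G (c r).1 - G (c' r).1) := by abel
      rw [e, norm_neg]
      exact (hG _ _).trans (by have := hm' r hr; linarith)
  have hx : ∀ r ∈ Icc (0 : ℝ) T, ‖(c r).1 - (c' r).1 - (a + r • b)‖ ≤ M * r ^ 2 := by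
    refine mv_lin (f := fun r => (c r).1 - (c' r).1 - (a + r • b))
      (f' := fun r => (c r).2 - (c' r).2 - b) hT ?_ ?_ ?_
    · intro r hr
      have h1 : HasDerivWithinAt (fun r : ℝ => a + r • b) b (Icc (0 : ℝ) T) r := by
        have : HasDerivWithinAt (fun r : ℝ => r • b) ((1 : ℝ) • b) (Icc (0 : ℝ) T) r :=
          (hasDerivWithinAt_id r _).smul_const b
        simpa using this.const_add a
      exact ((h.fst r hr).sub (h'.fst r hr)).sub h1
    · intro r hr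
      have := hv r hr
      linarith
    · simp [ha]
  have hMb : M ≤ 8 / 7 * (‖a‖ + T * ‖b‖) := by
    have h1 := hx s hs
    have h2 : M ≤ ‖(c s).1 - (c' s).1 - (a + s • b)‖ + ‖a + s • b‖ := by
      have := norm_add_le ((c s).1 - (c' s).1 - (a + s • b)) (a + s • b)
      simpa [hM] using this
    have h3 : ‖a + s • b‖ ≤ ‖a‖ + T * ‖b‖ := by
      refine (norm_add_le _ _).trans ?_
      rw [norm_smul, Real.norm_of_nonneg hs.1]
      have := mul_le_mul_of_nonneg_right hs.2 (norm_nonneg b)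
      linarith
    have h4 : M * s ^ 2 ≤ M * (1 / 16) := by
      refine mul_le_mul_of_nonneg_left ?_ hM0
      have := hs.1; have := hs.2
      nlinarith
    nlinarith
  have hq : 0 ≤ ‖a‖ + T * ‖b‖ := by positivity
  constructor
  · refine (hx T hTT).trans ?_
    have : 0 ≤ T ^ 2 := sq_nonneg T
    calc M * T ^ 2 ≤ (8 / 7 * (‖a‖ + T * ‖b‖)) * T ^ 2 := mul_le_mul_of_nonneg_right hMb this
      _ ≤ 4 * T ^ 2 * (‖a‖ + T * ‖b‖) := by
        have := mul_nonneg this hq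
        nlinarith
  · refine (hv T hTT).trans ?_
    calc 2 * M * T ≤ 2 * (8 / 7 * (‖a‖ + T * ‖b‖)) * T := by
          have := mul_le_mul_of_nonneg_right hMb hT
          nlinarith
      _ ≤ 4 * T * (‖a‖ + T * ‖b‖) := by
        have := mul_nonneg hT hq
        nlinarith

theorem sol_short {G : X → X} (hG : ∀ x y, ‖G x - G y‖ ≤ 2 * ‖x - y‖) {T : ℝ}
    {c : ℝ → X × X} (h : Sol G T c) (hT : 0 ≤ T) (hT1 : T ≤ 1 / 4) :
    ‖(c T).1 - (c 0).1‖ ≤ 2 * T * (‖(c 0).2‖ + T * ‖G (c 0).1‖) ∧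
    ‖(c T).1 - ((c 0).1 + T • (c 0).2 - (T ^ 2 / 2) • G (c 0).1)‖ ≤
      2 * T ^ 3 * (‖(c 0).2‖ + T * ‖G (c 0).1‖) := by
  set x := (c 0).1 with hx0
  set p := (c 0).2 with hp0
  set g := G x with hg
  have hTT : T ∈ Icc (0 : ℝ) T := right_mem_Icc.2 hT
  obtain ⟨s, hs, hm'⟩ := sol_sup h hT x
  set M := ‖(c s).1 - x‖ with hM
  have hM0 : 0 ≤ M := norm_nonneg _
  have hv : ∀ r ∈ Icc (0 : ℝ) T, ‖(c r).2 - p + r • g‖ ≤ 2 * M * r := by
    intro r hr
    have := mv_const (f := fun r => (c r).2 + r • g)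
      (f' := fun r => -G (c r).1 + g) (T := T) (M := 2 * M) hT
      (fun r hr => ?_) ?_ r hr
    · have e : (c r).2 - p + r • g = (c r).2 + r • g - ((c 0).2 + (0 : ℝ) • g) := by
        rw [hp0]; simp only [zero_smul]; abel
      rw [e]; exact this
    · have h1 : HasDerivWithinAt (fun r : ℝ => r • g) g (Icc (0 : ℝ) T) r := by
        simpa using (hasDerivWithinAt_id r _).smul_const g
      exact (h.snd r hr).add h1
    · intro r hr
      have e : -G (c r).1 + g = -(G (c r).1 - G x) := by rw [hg]; abel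
      rw [e, norm_neg]
      exact (hG _ _).trans (by have := hm' r hr; linarith)
  have hx : ∀ r ∈ Icc (0 : ℝ) T, ‖(c r).1 - (x + r • p - (r ^ 2 / 2) • g)‖ ≤ M * r ^ 2 := by
    refine mv_lin (f := fun r => (c r).1 - (x + r • p - (r ^ 2 / 2) • g))
      (f' := fun r => (c r).2 - (p - r • g)) hT ?_ ?_ ?_
    · intro r hr
      have h1 : HasDerivWithinAt (fun r : ℝ => r • p) p (Icc (0 : ℝ) T) r := by
        simpa using (hasDerivWithinAt_id r _).smul_const p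
      have h2 : HasDerivWithinAt (fun r : ℝ => (r ^ 2 / 2) • g) (r • g) (Icc (0 : ℝ) T) r := by
        have h3 : HasDerivWithinAt (fun r : ℝ => r ^ 2 / 2) r (Icc (0 : ℝ) T) r := by
          have h1 : HasDerivAt (fun s : ℝ => s ^ 2) (2 * r) r := by simpa using hasDerivAt_pow 2 r
          have h2 := (h1.div_const 2).hasDerivWithinAt (s := Icc (0 : ℝ) T)
          have e : 2 * r / 2 = r := by ring
          rwa [e] at h2
        exact h3.smul_const g
      exact (h.fst r hr).sub ((h1.const_add x).sub h2)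
    · intro r hr
      have := hv r hr
      have e : (c r).2 - (p - r • g) = (c r).2 - p + r • g := by abel
      rw [e]
      linarith
    · simp [hx0]
  have hMb : M ≤ 8 / 7 * (T * (‖p‖ + T * ‖g‖)) := by
    have h1 := hx s hs
    have h2 : M ≤ ‖(c s).1 - (x + s • p - (s ^ 2 / 2) • g)‖ + ‖s • p - (s ^ 2 / 2) • g‖ := by
      have := norm_add_le ((c s).1 - (x + s • p - (s ^ 2 / 2) • g)) (s • p - (s ^ 2 / 2) • g)
      have e : (c s).1 - (x + s • p - (s ^ 2 / 2) • g) + (s • p - (s ^ 2 / 2) • g) =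
        (c s).1 - x := by abel
      rwa [e] at this
    have h3 : ‖s • p - (s ^ 2 / 2) • g‖ ≤ T * (‖p‖ + T * ‖g‖) := by
      refine (norm_sub_le _ _).trans ?_
      rw [norm_smul, norm_smul, Real.norm_of_nonneg hs.1, Real.norm_of_nonneg (by positivity)]
      have h5 := mul_le_mul_of_nonneg_right hs.2 (norm_nonneg p)
      have h6 : s ^ 2 / 2 ≤ T ^ 2 := by
        have := hs.1; have := hs.2; nlinarith
      have h7 := mul_le_mul_of_nonneg_right h6 (norm_nonneg g)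
      nlinarith
    have h4 : M * s ^ 2 ≤ M * (1 / 16) := by
      refine mul_le_mul_of_nonneg_left ?_ hM0
      have := hs.1; have := hs.2
      nlinarith
    nlinarith
  have hq : 0 ≤ ‖p‖ + T * ‖g‖ := by positivity
  constructor
  · have := hm' T hTT
    refine this.trans (hMb.trans ?_)
    have := mul_nonneg hT hq
    nlinarith
  · refine (hx T hTT).trans ?_
    have : 0 ≤ T ^ 2 := sq_nonneg T
    calc M * T ^ 2 ≤ (8 / 7 * (T * (‖p‖ + T * ‖g‖))) * T ^ 2 :=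
          mul_le_mul_of_nonneg_right hMb this
      _ ≤ 2 * T ^ 3 * (‖p‖ + T * ‖g‖) := by
        have : 0 ≤ T ^ 3 * (‖p‖ + T * ‖g‖) := by positivity
        nlinarith

/-- one node of the kicked path -/
theorem node_step {A M η δ : ℝ} {u v a b a' b' : X} (hA : 0 ≤ A) (hM : 0 ≤ M) (hη : 0 < η)
    (hη1 : η ≤ 1 / 4) (hδ : 0 ≤ δ) (hδ1 : δ ≤ 1) (hu : ‖u‖ ≤ M) (hv : ‖v‖ ≤ M)
    (hb : ‖b + η • u‖ ≤ A * η ^ 3 * M) (ha : ‖a + η ^ 2 • v‖ ≤ A * η ^ 4 * M)
    (ha' : ‖a' - (a + (η * δ) • b)‖ ≤ 4 * (η * δ) ^ 2 * (‖a‖ + (η * δ) * ‖b‖))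
    (hb' : ‖b' - b‖ ≤ 4 * (η * δ) * (‖a‖ + (η * δ) * ‖b‖)) :
    ‖a' + η ^ 2 • (v + δ • u)‖ ≤ (5 / 2 * A + 8) * η ^ 4 * M ∧
    ‖b' + η • u‖ ≤ (5 / 2 * A + 8) * η ^ 3 * M := by
  have hη2 : η ^ 2 ≤ 1 / 16 := by nlinarith
  have hbn : ‖b‖ ≤ η * M * (1 + A / 16) := by
    have h1 : ‖b‖ ≤ ‖b + η • u‖ + ‖η • u‖ := by
      have := norm_sub_le (b + η • u) (η • u)
      simpa using this
    have h2 : ‖η • u‖ ≤ η * M := by
      rw [norm_smul, Real.norm_of_nonneg hη.le]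
      exact mul_le_mul_of_nonneg_left hu hη.le
    have h3 : A * η ^ 3 * M ≤ A * (1 / 16) * η * M := by
      have : A * η ^ 3 * M = (A * η * M) * η ^ 2 := by ring
      rw [this]
      have h5 : 0 ≤ A * η * M := by positivity
      have := mul_le_mul_of_nonneg_left hη2 h5
      linarith
    linarith
  have han : ‖a‖ ≤ η ^ 2 * M * (1 + A / 16) := by
    have h1 : ‖a‖ ≤ ‖a + η ^ 2 • v‖ + ‖η ^ 2 • v‖ := by
      have := norm_sub_le (a + η ^ 2 • v) (η ^ 2 • v)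
      simpa using this
    have h2 : ‖η ^ 2 • v‖ ≤ η ^ 2 * M := by
      rw [norm_smul, Real.norm_of_nonneg (by positivity)]
      exact mul_le_mul_of_nonneg_left hv (by positivity)
    have h3 : A * η ^ 4 * M ≤ A * (1 / 16) * η ^ 2 * M := by
      have : A * η ^ 4 * M = (A * η ^ 2 * M) * η ^ 2 := by ring
      rw [this]
      have h5 : 0 ≤ A * η ^ 2 * M := by positivity
      have := mul_le_mul_of_nonneg_left hη2 h5
      linarith
    linarith
  have hηδ : 0 ≤ η * δ := by positivity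
  have hηδ1 : η * δ ≤ η := by nlinarith
  have hK : ‖a‖ + (η * δ) * ‖b‖ ≤ 2 * η ^ 2 * M * (1 + A / 16) := by
    have h1 : (η * δ) * ‖b‖ ≤ η * (η * M * (1 + A / 16)) :=
      mul_le_mul hηδ1 hbn (norm_nonneg _) hη.le
    nlinarith
  have hK0 : 0 ≤ ‖a‖ + (η * δ) * ‖b‖ := by positivity
  constructor
  · have e : a' + η ^ 2 • (v + δ • u) =
        (a' - (a + (η * δ) • b)) + (a + η ^ 2 • v) + (η * δ) • (b + η • u) := by
      simp only [smul_add, smul_smul]
      have : η * δ * η = η ^ 2 * δ := by ring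
      rw [this]
      abel
    rw [e]
    have h1 : 4 * (η * δ) ^ 2 * (‖a‖ + (η * δ) * ‖b‖) ≤
        4 * η ^ 2 * (2 * η ^ 2 * M * (1 + A / 16)) := by
      refine mul_le_mul ?_ hK hK0 (by positivity)
      have := pow_le_pow_left₀ hηδ hηδ1 2
      linarith
    have h2 : ‖(η * δ) • (b + η • u)‖ ≤ η * (A * η ^ 3 * M) := by
      rw [norm_smul, Real.norm_of_nonneg hηδ]
      exact mul_le_mul hηδ1 hb (norm_nonneg _) hη.le
    have h3 := norm_add₃_le (a := a' - (a + (η * δ) • b)) (b := a + η ^ 2 • v)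
      (c := (η * δ) • (b + η • u))
    have h4 : 4 * η ^ 2 * (2 * η ^ 2 * M * (1 + A / 16)) + A * η ^ 4 * M + η * (A * η ^ 3 * M) =
      (5 / 2 * A + 8) * η ^ 4 * M := by ring
    linarith
  · have e : b' + η • u = (b' - b) + (b + η • u) := by abel
    rw [e]
    have h1 : 4 * (η * δ) * (‖a‖ + (η * δ) * ‖b‖) ≤
        4 * η * (2 * η ^ 2 * M * (1 + A / 16)) := by
      refine mul_le_mul ?_ hK hK0 (by positivity)
      linarith
    have h3 := norm_add_le (b' - b) (b + η • u)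
    have h4 : 4 * η * (2 * η ^ 2 * M * (1 + A / 16)) + A * η ^ 3 * M ≤
      (5 / 2 * A + 8) * η ^ 3 * M := by
      have : 0 ≤ A * η ^ 3 * M := by positivity
      nlinarith
    linarith

end P347SA
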